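import Mathlib

/-!
The pressure of the orthogonally invariant Ising spin glass with Haar distributed eigenvectors.
-/

namespace Vale.Agent.Lib.P166

open MeasureTheory Matrix

/-- The orthogonal group `O(N)`. -/
abbrev OrthN (N : ℕ) := Matrix.orthogonalGroup (Fin N) ℝ

/-- The Borel sigma-algebra on `O(N)`. -/
noncomputable instance (N : ℕ) : MeasurableSpace (OrthN N) := borel _

instance (N : ℕ) : BorelSpace (OrthN N) := ⟨rfl⟩

/-- `O(N)` is compact: it is closed and its entries are bounded by `1`. -/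
instance (N : ℕ) : CompactSpace (OrthN N) := by
  have hclosed : IsClosed {A : Matrix (Fin N) (Fin N) ℝ | star A * A = 1} :=
    isClosed_eq (continuous_star.mul continuous_id) continuous_const
  have hsub : {A : Matrix (Fin N) (Fin N) ℝ | star A * A = 1} ⊆
      Set.pi Set.univ (fun _ => Set.pi Set.univ (fun _ => Set.Icc (-1 : ℝ) 1)) := by
    intro A hA i _ j _
    have h1 : (star A * A) j j = 1 := by
      rw [Set.mem_ofPred_eq.mp hA]
      simp
    have h2 : ∑ k, A k j * A k j = 1 := by
      rw [← h1]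
      simp [Matrix.mul_apply, Matrix.star_eq_conjTranspose]
    have h3 : A i j * A i j ≤ ∑ k, A k j * A k j :=
      Finset.single_le_sum (f := fun k => A k j * A k j) (fun k _ => mul_self_nonneg _)
        (Finset.mem_univ i)
    rw [h2] at h3
    constructor <;> nlinarith
  have hcomp : IsCompact {A : Matrix (Fin N) (Fin N) ℝ | star A * A = 1} := by
    refine IsCompact.of_isClosed_subset ?_ hclosed hsub
    exact isCompact_univ_pi (fun _ => isCompact_univ_pi (fun _ => isCompact_Icc))
  have hset : (Matrix.orthogonalGroup (Fin N) ℝ : Set (Matrix (Fin N) (Fin N) ℝ)) =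
      {A : Matrix (Fin N) (Fin N) ℝ | star A * A = 1} := by
    ext A
    simp only [SetLike.mem_coe, Set.mem_ofPred_eq]
    exact Matrix.mem_unitaryGroup_iff'
  have : IsCompact (Matrix.orthogonalGroup (Fin N) ℝ : Set (Matrix (Fin N) (Fin N) ℝ)) := by
    rw [hset]
    exact hcomp
  exact isCompact_iff_compactSpace.mp this

/-- Normalized Haar measure on `O(N)`. -/
noncomputable def haarO (N : ℕ) : Measure (OrthN N) := Measure.haarMeasure ⊤

/-- The vector of `±1` spins of a configuration. -/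
def spin {N : ℕ} (σ : Fin N → Bool) : Fin N → ℝ := fun i => if σ i then 1 else -1

/-- The coupling matrix `J = Uᵀ Λ U`. -/
noncomputable def coupling {N : ℕ} (Λ : Fin N → ℝ) (U : OrthN N) : Matrix (Fin N) (Fin N) ℝ :=
  (U.1)ᵀ * Matrix.diagonal Λ * U.1

/-- The pressure `P_N(β) = N⁻¹ log [2^{-N} ∑_σ exp (β/2 σᵀ J σ)]` with `J = Uᵀ Λ U`. -/
noncomputable def pressure {N : ℕ} (β : ℝ) (Λ : Fin N → ℝ) (U : OrthN N) : ℝ :=
  (1 / (N : ℝ)) * Real.log ((1 / 2 ^ N) * ∑ σ : Fin N → Bool,
    Real.exp (β / 2 * (spin σ ⬝ᵥ (coupling Λ U *ᵥ spin σ))))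

/-- The spectral hypotheses of the problem for a sequence of eigenvalue lists: the empirical
measures converge weakly to `μ`, and the largest and the smallest eigenvalue converge to `a` and
to `b`. -/
def SpectralLimit (μ : Measure ℝ) (a b : ℝ) (Λ : (N : ℕ) → Fin N → ℝ) : Prop :=
  (∀ f : ℝ → ℝ, Continuous f → (∃ C, ∀ x, |f x| ≤ C) →
    Filter.Tendsto (fun N : ℕ => (1 / (N : ℝ)) * ∑ i, f (Λ N i)) Filter.atTop
      (nhds (∫ x, f x ∂μ))) ∧
  Filter.Tendsto (fun N => ⨆ i, Λ N i) Filter.atTop (nhds a) ∧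
  Filter.Tendsto (fun N => ⨅ i, Λ N i) Filter.atTop (nhds b)

end Vale.Agent.Lib.P166
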