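import Vale.Agent.Lib.P166.Defs

/-!
Finite `N`: the Gibbs variational inequality, invariance under permutations of the eigenvalues,
and the Lipschitz estimate of the pressure in the eigenvalues.
-/

namespace Vale.Agent.Lib.P166

open MeasureTheory Matrix Finset

variable {N : ℕ}

instance : IsProbabilityMeasure (haarO N) := by
  constructor
  have h := Measure.haarMeasure_self (G := OrthN N) (K₀ := ⊤)
  simpa [haarO] using h

instance : (haarO N).IsMulLeftInvariant := by
  unfold haarO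
  infer_instance

/-- The rotated spin vector. -/
noncomputable def rot (U : OrthN N) (σ : Fin N → Bool) : Fin N → ℝ := U.1 *ᵥ spin σ

lemma spin_sq (σ : Fin N → Bool) (i : Fin N) : spin σ i * spin σ i = 1 := by
  unfold spin
  split_ifs <;> norm_num

lemma energy_eq (Λ : Fin N → ℝ) (U : OrthN N) (σ : Fin N → Bool) :
    spin σ ⬝ᵥ (coupling Λ U *ᵥ spin σ) = ∑ i, Λ i * (rot U σ i) ^ 2 := by
  unfold coupling rot
  set s := spin σ
  rw [← Matrix.mulVec_mulVec, ← Matrix.mulVec_mulVec, Matrix.dotProduct_mulVec,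
    Matrix.vecMul_transpose]
  simp only [dotProduct, Matrix.mulVec_diagonal]
  refine Finset.sum_congr rfl (fun i _ => ?_)
  ring

lemma sum_rot_sq (U : OrthN N) (σ : Fin N → Bool) : ∑ i, (rot U σ i) ^ 2 = N := by
  have h1 : ∑ i, (rot U σ i) ^ 2 = rot U σ ⬝ᵥ rot U σ := by
    simp only [dotProduct]
    refine Finset.sum_congr rfl (fun i _ => ?_)
    ring
  have hU : (U.1)ᵀ * U.1 = 1 := by
    have := (Matrix.mem_orthogonalGroup_iff' (n := Fin N) (R := ℝ)).mp U.2
    simpa [Matrix.star_eq_conjTranspose] using this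
  have h2 : rot U σ ⬝ᵥ rot U σ = spin σ ⬝ᵥ spin σ := by
    unfold rot
    rw [Matrix.dotProduct_mulVec, ← Matrix.vecMul_transpose, Matrix.vecMul_vecMul, hU]
    simp
  rw [h1, h2]
  simp only [dotProduct, spin_sq]
  simp

/-- The energy of a configuration. -/
noncomputable def En (Λ : Fin N → ℝ) (U : OrthN N) (σ : Fin N → Bool) : ℝ :=
  ∑ i, Λ i * (rot U σ i) ^ 2

/-- The partition function without the normalization. -/
noncomputable def Zf (β : ℝ) (Λ : Fin N → ℝ) (U : OrthN N) : ℝ :=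
  ∑ σ : Fin N → Bool, Real.exp (β / 2 * En Λ U σ)

lemma Zf_pos (β : ℝ) (Λ : Fin N → ℝ) (U : OrthN N) : 0 < Zf β Λ U := by
  unfold Zf
  apply Finset.sum_pos
  · exact fun _ _ => Real.exp_pos _
  · exact Finset.univ_nonempty

lemma pressure_eq (β : ℝ) (Λ : Fin N → ℝ) (U : OrthN N) :
    pressure β Λ U = (1 / (N : ℝ)) * (Real.log (1 / 2 ^ N) + Real.log (Zf β Λ U)) := by
  unfold pressure
  have h1 : (∑ σ : Fin N → Bool, Real.exp (β / 2 * (spin σ ⬝ᵥ (coupling Λ U *ᵥ spin σ)))) =
      Zf β Λ U := by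
    unfold Zf En
    refine Finset.sum_congr rfl (fun σ _ => ?_)
    rw [energy_eq]
  rw [h1, Real.log_mul (by positivity) (Zf_pos β Λ U).ne']

/-- The Gibbs weight of a configuration. -/
noncomputable def wt (β : ℝ) (Λ : Fin N → ℝ) (U : OrthN N) (σ : Fin N → Bool) : ℝ :=
  Real.exp (β / 2 * En Λ U σ) / Zf β Λ U

lemma wt_nonneg (β : ℝ) (Λ : Fin N → ℝ) (U : OrthN N) (σ : Fin N → Bool) : 0 ≤ wt β Λ U σ :=
  div_nonneg (Real.exp_pos _).le (Zf_pos β Λ U).le

lemma wt_sum (β : ℝ) (Λ : Fin N → ℝ) (U : OrthN N) : ∑ σ, wt β Λ U σ = 1 := by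
  unfold wt
  rw [← Finset.sum_div]
  exact div_self (Zf_pos β Λ U).ne'

/-- The Gibbs expectation of the squared `i`-th coordinate of `U σ / √N`. -/
noncomputable def gib (β : ℝ) (Λ : Fin N → ℝ) (U : OrthN N) (i : Fin N) : ℝ :=
  ∑ σ, wt β Λ U σ * ((rot U σ i) ^ 2 / N)

lemma gib_nonneg (β : ℝ) (Λ : Fin N → ℝ) (U : OrthN N) (i : Fin N) : 0 ≤ gib β Λ U i :=
  Finset.sum_nonneg (fun σ _ => mul_nonneg (wt_nonneg _ _ _ _)
    (div_nonneg (sq_nonneg _) (Nat.cast_nonneg _)))

lemma gib_sum (hN : 0 < N) (β : ℝ) (Λ : Fin N → ℝ) (U : OrthN N) : ∑ i, gib β Λ U i = 1 := by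
  unfold gib
  rw [Finset.sum_comm]
  have hN' : (N : ℝ) ≠ 0 := by positivity
  have h1 : ∀ σ ∈ (Finset.univ : Finset (Fin N → Bool)),
      ∑ i, wt β Λ U σ * ((rot U σ i) ^ 2 / N) = wt β Λ U σ := by
    intro σ _
    rw [← Finset.mul_sum, ← Finset.sum_div, sum_rot_sq, div_self hN', mul_one]
  rw [Finset.sum_congr rfl h1, wt_sum]

/-- Jensen's inequality for the exponential on a finite set. -/
lemma jensen_exp {ι : Type*} (s : Finset ι) (w a : ι → ℝ) (hw : ∀ i ∈ s, 0 ≤ w i)
    (hs : ∑ i ∈ s, w i = 1) : Real.exp (∑ i ∈ s, w i * a i) ≤ ∑ i ∈ s, w i * Real.exp (a i) := by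
  set m := ∑ i ∈ s, w i * a i with hm
  have h1 : ∀ i ∈ s, w i * (Real.exp m * (1 + (a i - m))) ≤ w i * Real.exp (a i) := by
    intro i hi
    apply mul_le_mul_of_nonneg_left _ (hw i hi)
    have h2 := Real.add_one_le_exp (a i - m)
    have h3 : Real.exp (a i) = Real.exp m * Real.exp (a i - m) := by
      rw [← Real.exp_add]
      congr 1
      ring
    rw [h3]
    apply mul_le_mul_of_nonneg_left _ (Real.exp_pos m).le
    linarith
  have h2 := Finset.sum_le_sum h1
  have h3 : ∑ i ∈ s, w i * (Real.exp m * (1 + (a i - m))) = Real.exp m := by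
    have : ∀ i ∈ s, w i * (Real.exp m * (1 + (a i - m))) =
        Real.exp m * (w i + (w i * a i - w i * m)) := by
      intro i _
      ring
    rw [Finset.sum_congr rfl this, ← Finset.mul_sum, Finset.sum_add_distrib, Finset.sum_sub_distrib,
      ← Finset.sum_mul, hs, ← hm]
    ring
  rw [h3] at h2
  exact h2

/-- The Gibbs variational inequality for the pressure. -/
lemma pressure_gibbs (hN : 0 < N) (β : ℝ) (Λ Λ' : Fin N → ℝ) (U : OrthN N) :
    β / 2 * ∑ i, (Λ' i - Λ i) * gib β Λ U i ≤ pressure β Λ' U - pressure β Λ U := by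
  have hN' : (0 : ℝ) < N := by exact_mod_cast hN
  rw [pressure_eq, pressure_eq]
  set a : (Fin N → Bool) → ℝ := fun σ => β / 2 * (En Λ' U σ - En Λ U σ) with ha
  have h1 : Zf β Λ' U = Zf β Λ U * ∑ σ, wt β Λ U σ * Real.exp (a σ) := by
    rw [Finset.mul_sum]
    have hZ := (Zf_pos β Λ U).ne'
    refine Finset.sum_congr rfl (fun σ _ => ?_)
    unfold wt
    simp only [ha]
    have e : Real.exp (β / 2 * En Λ' U σ) =
        Real.exp (β / 2 * En Λ U σ) * Real.exp (β / 2 * (En Λ' U σ - En Λ U σ)) := by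
      rw [← Real.exp_add]
      congr 1
      ring
    rw [e]
    field_simp
  have h2 := jensen_exp Finset.univ (wt β Λ U) a (fun σ _ => wt_nonneg _ _ _ _) (wt_sum _ _ _)
  have hZ := Zf_pos β Λ U
  have hsumpos : 0 < ∑ σ, wt β Λ U σ * Real.exp (a σ) :=
    lt_of_lt_of_le (Real.exp_pos _) h2
  have h3 : ∑ σ, wt β Λ U σ * a σ ≤ Real.log (∑ σ, wt β Λ U σ * Real.exp (a σ)) := by
    rw [Real.le_log_iff_exp_le hsumpos]
    exact h2
  have h4 : ∑ σ, wt β Λ U σ * a σ = N * (β / 2 * ∑ i, (Λ' i - Λ i) * gib β Λ U i) := by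
    have hN'' : (N : ℝ) ≠ 0 := hN'.ne'
    have e1 : ∀ σ, a σ = β / 2 * ∑ i, (Λ' i - Λ i) * (rot U σ i) ^ 2 := by
      intro σ
      simp only [ha, En]
      rw [← Finset.sum_sub_distrib]
      congr 1
      refine Finset.sum_congr rfl (fun i _ => ?_)
      ring
    have e2 : ∑ i, (Λ' i - Λ i) * gib β Λ U i =
        (1 / (N : ℝ)) * ∑ σ, wt β Λ U σ * ∑ i, (Λ' i - Λ i) * (rot U σ i) ^ 2 := by
      unfold gib
      simp only [Finset.mul_sum]
      rw [Finset.sum_comm]
      refine Finset.sum_congr rfl (fun σ _ => Finset.sum_congr rfl (fun i _ => ?_))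
      field_simp
    rw [e2]
    have e3 : ∑ σ, wt β Λ U σ * a σ =
        β / 2 * ∑ σ, wt β Λ U σ * ∑ i, (Λ' i - Λ i) * (rot U σ i) ^ 2 := by
      rw [Finset.mul_sum]
      refine Finset.sum_congr rfl (fun σ _ => ?_)
      rw [e1]
      ring
    rw [e3]
    field_simp
  rw [h1, Real.log_mul hZ.ne' hsumpos.ne']
  have h5 : (1 / (N : ℝ)) * (Real.log (1 / 2 ^ N) + (Real.log (Zf β Λ U) +
      Real.log (∑ σ, wt β Λ U σ * Real.exp (a σ)))) -
      (1 / (N : ℝ)) * (Real.log (1 / 2 ^ N) + Real.log (Zf β Λ U)) =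
      (1 / (N : ℝ)) * Real.log (∑ σ, wt β Λ U σ * Real.exp (a σ)) := by
    ring
  rw [h5, one_div, le_inv_mul_iff₀ hN', ← h4]
  exact h3

lemma continuous_rot (σ : Fin N → Bool) (i : Fin N) :
    Continuous (fun U : OrthN N => rot U σ i) := by
  unfold rot
  simp only [mulVec, dotProduct]
  exact continuous_finsetSum _
    (fun j _ => (Continuous.matrix_elem continuous_subtype_val i j).mul continuous_const)

lemma continuous_En (Λ : Fin N → ℝ) (σ : Fin N → Bool) :
    Continuous (fun U : OrthN N => En Λ U σ) := by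
  unfold En
  exact continuous_finsetSum _
    (fun i _ => continuous_const.mul ((continuous_rot σ i).pow 2))

lemma continuous_Zf (β : ℝ) (Λ : Fin N → ℝ) : Continuous (fun U : OrthN N => Zf β Λ U) := by
  unfold Zf
  exact continuous_finsetSum _
    (fun σ _ => Real.continuous_exp.comp (continuous_const.mul (continuous_En Λ σ)))

lemma continuous_pressure (β : ℝ) (Λ : Fin N → ℝ) :
    Continuous (fun U : OrthN N => pressure β Λ U) := by
  have : (fun U : OrthN N => pressure β Λ U) = fun U =>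
      (1 / (N : ℝ)) * (Real.log (1 / 2 ^ N) + Real.log (Zf β Λ U)) := by
    funext U
    exact pressure_eq β Λ U
  rw [this]
  exact continuous_const.mul (continuous_const.add
    ((continuous_Zf β Λ).log (fun U => (Zf_pos β Λ U).ne')))

lemma continuous_gib (β : ℝ) (Λ : Fin N → ℝ) (i : Fin N) :
    Continuous (fun U : OrthN N => gib β Λ U i) := by
  unfold gib wt
  refine continuous_finsetSum _ (fun σ _ => ?_)
  refine Continuous.mul ?_ (((continuous_rot σ i).pow 2).div_const _)
  exact (Real.continuous_exp.comp (continuous_const.mul (continuous_En Λ σ))).div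
    (continuous_Zf β Λ) (fun U => (Zf_pos β Λ U).ne')

lemma integrable_of_continuous {f : OrthN N → ℝ} (hf : Continuous f) :
    Integrable f (haarO N) :=
  hf.integrable_of_hasCompactSupport (HasCompactSupport.of_compactSpace f)

/-- The permutation matrix of `π`. -/
def permMat (π : Equiv.Perm (Fin N)) : Matrix (Fin N) (Fin N) ℝ :=
  fun i j => if π i = j then 1 else 0

lemma permMat_mulVec (π : Equiv.Perm (Fin N)) (v : Fin N → ℝ) (i : Fin N) :
    (permMat π *ᵥ v) i = v (π i) := by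
  simp [mulVec, dotProduct, permMat]

lemma permMat_mem (π : Equiv.Perm (Fin N)) :
    permMat π ∈ Matrix.orthogonalGroup (Fin N) ℝ := by
  rw [Matrix.mem_orthogonalGroup_iff']
  ext a b
  have h : ((permMat π)ᵀ * permMat π) a b =
      ∑ k, (if π k = a then (1 : ℝ) else 0) * (if π k = b then (1 : ℝ) else 0) := by
    simp [Matrix.mul_apply, permMat]
  rw [h, Equiv.sum_comp π (fun k => (if k = a then (1 : ℝ) else 0) * (if k = b then (1 : ℝ) else 0))]
  simp [Matrix.one_apply, eq_comm]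

/-- The permutation matrix as an element of `O(N)`. -/
def permO (π : Equiv.Perm (Fin N)) : OrthN N := ⟨permMat π, permMat_mem π⟩

lemma rot_perm (π : Equiv.Perm (Fin N)) (U : OrthN N) (σ : Fin N → Bool) (i : Fin N) :
    rot (permO π * U) σ i = rot U σ (π i) := by
  unfold rot
  have h : ((permO π * U : OrthN N)).1 = permMat π * U.1 := rfl
  rw [h, ← Matrix.mulVec_mulVec, permMat_mulVec]

lemma En_perm (π : Equiv.Perm (Fin N)) (Λ : Fin N → ℝ) (U : OrthN N) (σ : Fin N → Bool) :
    En Λ (permO π * U) σ = En (Λ ∘ π.symm) U σ := by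
  unfold En
  simp only [rot_perm, Function.comp]
  rw [← Equiv.sum_comp π (fun j => Λ (π.symm j) * (rot U σ j) ^ 2)]
  simp

lemma Zf_perm (π : Equiv.Perm (Fin N)) (β : ℝ) (Λ : Fin N → ℝ) (U : OrthN N) :
    Zf β Λ (permO π * U) = Zf β (Λ ∘ π.symm) U := by
  unfold Zf
  simp only [En_perm]

lemma pressure_perm (π : Equiv.Perm (Fin N)) (β : ℝ) (Λ : Fin N → ℝ) (U : OrthN N) :
    pressure β Λ (permO π * U) = pressure β (Λ ∘ π.symm) U := by
  rw [pressure_eq, pressure_eq, Zf_perm]

lemma gib_perm (π : Equiv.Perm (Fin N)) (β : ℝ) (Λ : Fin N → ℝ) (U : OrthN N) (i : Fin N) :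
    gib β Λ (permO π * U) i = gib β (Λ ∘ π.symm) U (π i) := by
  unfold gib wt
  simp only [Zf_perm, En_perm, rot_perm]

/-- The mean pressure. -/
noncomputable def meanP (β : ℝ) (Λ : Fin N → ℝ) : ℝ := ∫ U, pressure β Λ U ∂haarO N

/-- The mean Gibbs weight of the coordinate `i`. -/
noncomputable def gI (β : ℝ) (Λ : Fin N → ℝ) (i : Fin N) : ℝ := ∫ U, gib β Λ U i ∂haarO N

lemma meanP_perm (π : Equiv.Perm (Fin N)) (β : ℝ) (Λ : Fin N → ℝ) :
    meanP β (Λ ∘ π.symm) = meanP β Λ := by
  unfold meanP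
  rw [← integral_mul_left_eq_self (μ := haarO N) (fun U => pressure β Λ U) (permO π)]
  exact integral_congr_ae (Filter.Eventually.of_forall (fun U => (pressure_perm π β Λ U).symm))

lemma gI_perm (π : Equiv.Perm (Fin N)) (β : ℝ) (Λ : Fin N → ℝ) (i : Fin N) :
    gI β (Λ ∘ π.symm) (π i) = gI β Λ i := by
  unfold gI
  rw [← integral_mul_left_eq_self (μ := haarO N) (fun U => gib β Λ U i) (permO π)]
  exact integral_congr_ae (Filter.Eventually.of_forall (fun U => (gib_perm π β Λ U i).symm))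

lemma gI_nonneg (β : ℝ) (Λ : Fin N → ℝ) (i : Fin N) : 0 ≤ gI β Λ i :=
  integral_nonneg (fun U => gib_nonneg β Λ U i)

lemma gI_sum (hN : 0 < N) (β : ℝ) (Λ : Fin N → ℝ) : ∑ i, gI β Λ i = 1 := by
  unfold gI
  rw [← integral_finsetSum _ (fun i _ => integrable_of_continuous (continuous_gib β Λ i))]
  simp only [gib_sum hN]
  simp

lemma meanP_gibbs (hN : 0 < N) (β : ℝ) (Λ Λ' : Fin N → ℝ) :
    β / 2 * ∑ i, (Λ' i - Λ i) * gI β Λ i ≤ meanP β Λ' - meanP β Λ := by
  unfold meanP gI
  rw [← integral_sub (integrable_of_continuous (continuous_pressure β Λ'))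
    (integrable_of_continuous (continuous_pressure β Λ))]
  have hint : ∀ i, Integrable (fun U => (Λ' i - Λ i) * gib β Λ U i) (haarO N) :=
    fun i => (integrable_of_continuous (continuous_gib β Λ i)).const_mul _
  have e : β / 2 * ∑ i, (Λ' i - Λ i) * ∫ U, gib β Λ U i ∂haarO N =
      ∫ U, β / 2 * ∑ i, (Λ' i - Λ i) * gib β Λ U i ∂haarO N := by
    rw [integral_const_mul, integral_finsetSum _ (fun i _ => hint i)]
    congr 1
    refine Finset.sum_congr rfl (fun i _ => ?_)
    rw [integral_const_mul]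
  rw [e]
  apply integral_mono
  · exact ((integrable_finsetSum _ (fun i _ => hint i))).const_mul _
  · exact (integrable_of_continuous (continuous_pressure β Λ')).sub
      (integrable_of_continuous (continuous_pressure β Λ))
  · exact fun U => pressure_gibbs hN β Λ Λ' U

/-- Coordinates with a larger eigenvalue carry more mean Gibbs weight. -/
lemma gI_ord (hN : 0 < N) {β : ℝ} (hβ : 0 < β) (Λ : Fin N → ℝ) {i j : Fin N}
    (h : Λ j ≤ Λ i) : gI β Λ j ≤ gI β Λ i := by
  by_cases hij : i = j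
  · rw [hij]
  set π := Equiv.swap i j with hπ
  set Λ' := Λ ∘ π.symm with hΛ'
  have hΛi : Λ' i = Λ j := by simp [hΛ', hπ]
  have hΛj : Λ' j = Λ i := by simp [hΛ', hπ]
  have hΛk : ∀ k, k ≠ i → k ≠ j → Λ' k = Λ k := by
    intro k hki hkj
    simp [hΛ', hπ, Equiv.swap_apply_of_ne_of_ne hki hkj]
  rcases lt_or_eq_of_le h with hlt | heq
  · have h1 := meanP_gibbs hN β Λ Λ'
    rw [hΛ', meanP_perm, sub_self, ← hΛ'] at h1
    have h2 : ∑ k, (Λ' k - Λ k) * gI β Λ k =
        (Λ j - Λ i) * gI β Λ i + (Λ i - Λ j) * gI β Λ j := by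
      have h3 : ∑ k ∈ ({i, j} : Finset (Fin N)), (Λ' k - Λ k) * gI β Λ k =
          ∑ k, (Λ' k - Λ k) * gI β Λ k := by
        apply Finset.sum_subset (Finset.subset_univ _)
        intro k _ hk
        have hki : k ≠ i := fun e => hk (by simp [e])
        have hkj : k ≠ j := fun e => hk (by simp [e])
        rw [hΛk k hki hkj]
        ring
      rw [← h3, Finset.sum_pair hij, hΛi, hΛj]
    rw [h2] at h1
    have h4 : 0 < Λ i - Λ j := by linarith
    have h5 : (Λ i - Λ j) * (gI β Λ j - gI β Λ i) ≤ 0 := by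
      have : β / 2 * ((Λ i - Λ j) * (gI β Λ j - gI β Λ i)) ≤ 0 := by
        calc β / 2 * ((Λ i - Λ j) * (gI β Λ j - gI β Λ i))
            = β / 2 * ((Λ j - Λ i) * gI β Λ i + (Λ i - Λ j) * gI β Λ j) := by ring
          _ ≤ 0 := h1
      by_contra hne
      push Not at hne
      have h6 : 0 < β / 2 * ((Λ i - Λ j) * (gI β Λ j - gI β Λ i)) := by positivity
      linarith
    have h6 : gI β Λ j - gI β Λ i ≤ 0 := by
      by_contra hne
      push Not at hne
      have := mul_pos h4 hne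
      linarith
    linarith
  · have hfix : Λ' = Λ := by
      funext k
      by_cases hki : k = i
      · rw [hki, hΛi, heq]
      by_cases hkj : k = j
      · rw [hkj, hΛj, heq]
      exact hΛk k hki hkj
    have h1 := gI_perm π β Λ i
    rw [← hΛ', hfix] at h1
    have hπi : π i = j := by simp [hπ]
    rw [hπi] at h1
    exact h1.le

/-- For decreasing eigenvalues the mean Gibbs weight of the `k`-th coordinate is at most
`1 / (k + 1)`. -/
lemma gI_le_inv (hN : 0 < N) {β : ℝ} (hβ : 0 < β) {M : Fin N → ℝ} (hM : Antitone M) (k : Fin N) :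
    gI β M k ≤ 1 / ((k : ℝ) + 1) := by
  have hpos : (0 : ℝ) < (k : ℝ) + 1 := by positivity
  rw [le_div_iff₀ hpos]
  have h1 : ∑ j ∈ Finset.Iic k, gI β M k ≤ ∑ j ∈ Finset.Iic k, gI β M j := by
    refine Finset.sum_le_sum (fun j hj => ?_)
    exact gI_ord hN hβ M (hM (Finset.mem_Iic.mp hj))
  have h2 : ∑ j ∈ Finset.Iic k, gI β M j ≤ ∑ j, gI β M j :=
    Finset.sum_le_sum_of_subset_of_nonneg (Finset.subset_univ _)
      (fun j _ _ => gI_nonneg β M j)
  rw [gI_sum hN] at h2
  rw [Finset.sum_const, Fin.card_Iic, nsmul_eq_mul] at h1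
  push_cast at h1
  linarith

lemma pressure_mono (hN : 0 < N) {β : ℝ} (hβ : 0 ≤ β) {Λ Λ' : Fin N → ℝ} (h : ∀ i, Λ i ≤ Λ' i)
    (U : OrthN N) : pressure β Λ U ≤ pressure β Λ' U := by
  have h1 := pressure_gibbs hN β Λ Λ' U
  have h2 : 0 ≤ β / 2 * ∑ i, (Λ' i - Λ i) * gib β Λ U i :=
    mul_nonneg (by positivity) (Finset.sum_nonneg (fun i _ =>
      mul_nonneg (by linarith [h i]) (gib_nonneg β Λ U i)))
  linarith

/-- The basic estimate: under the natural coupling, the `L¹` distance of the pressures for two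
decreasing lists of eigenvalues is bounded by the variation of the lists against the mean Gibbs
weights of the pointwise maximum of the lists. -/
theorem abs_le_gI (hN : 0 < N) {β : ℝ} (hβ : 0 < β) (Λ Λ' : Fin N → ℝ) :
    ∫ U, |pressure β Λ U - pressure β Λ' U| ∂haarO N ≤
      β / 2 * ∑ i, |Λ i - Λ' i| * gI β (fun i => max (Λ i) (Λ' i)) i := by
  set M : Fin N → ℝ := fun i => max (Λ i) (Λ' i) with hM
  have hpt : ∀ U : OrthN N, |pressure β Λ U - pressure β Λ' U| ≤
      (pressure β M U - pressure β Λ U) + (pressure β M U - pressure β Λ' U) := by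
    intro U
    have h1 := pressure_mono hN hβ.le (fun i => le_max_left (Λ i) (Λ' i)) U
    have h2 := pressure_mono hN hβ.le (fun i => le_max_right (Λ i) (Λ' i)) U
    rw [abs_le]
    constructor <;> linarith
  have hi : ∀ L : Fin N → ℝ, Integrable (fun U => pressure β L U) (haarO N) :=
    fun L => integrable_of_continuous (continuous_pressure β L)
  have h1 : ∫ U, |pressure β Λ U - pressure β Λ' U| ∂haarO N ≤
      (meanP β M - meanP β Λ) + (meanP β M - meanP β Λ') := by
    unfold meanP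
    have hi1 : Integrable (fun U => pressure β M U - pressure β Λ U) (haarO N) :=
      (hi M).sub (hi Λ)
    have hi2 : Integrable (fun U => pressure β M U - pressure β Λ' U) (haarO N) :=
      (hi M).sub (hi Λ')
    rw [← integral_sub (hi M) (hi Λ), ← integral_sub (hi M) (hi Λ'), ← integral_add hi1 hi2]
    exact integral_mono (((hi Λ).sub (hi Λ')).abs) (hi1.add hi2) hpt
  have h2 := meanP_gibbs hN β M Λ
  have h3 := meanP_gibbs hN β M Λ'
  have h4 : ∑ i, |Λ i - Λ' i| * gI β M i =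
      - (∑ i, (Λ i - M i) * gI β M i) - ∑ i, (Λ' i - M i) * gI β M i := by
    rw [← Finset.sum_neg_distrib, ← Finset.sum_sub_distrib]
    refine Finset.sum_congr rfl (fun i _ => ?_)
    have e : |Λ i - Λ' i| = - (Λ i - M i) - (Λ' i - M i) := by
      simp only [hM]
      rcases le_total (Λ i) (Λ' i) with h | h
      · rw [max_eq_right h, abs_of_nonpos (by linarith)]
        ring
      · rw [max_eq_left h, abs_of_nonneg (by linarith)]
        ring
    rw [e]
    ring
  rw [h4]
  nlinarith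

end Vale.Agent.Lib.P166
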