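import Vale.Agent.Lib.P166.Finite

/-!
The limit `N → ∞`: the `L¹` distance of the pressures for two eigenvalue sequences with the same
spectral limit tends to zero.
-/

namespace Vale.Agent.Lib.P166

open MeasureTheory Finset Filter Topology

/-- A continuous ramp from `0` to `1` on `[t, t + w]`. -/
noncomputable def ramp (t w x : ℝ) : ℝ := max 0 (min 1 ((x - t) / w))

lemma ramp_continuous (t w : ℝ) : Continuous (ramp t w) := by
  unfold ramp
  exact continuous_const.max (continuous_const.min ((continuous_id.sub continuous_const).div_const w))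

lemma ramp_nonneg (t w x : ℝ) : 0 ≤ ramp t w x := le_max_left _ _

lemma ramp_le_one (t w x : ℝ) : ramp t w x ≤ 1 :=
  max_le zero_le_one (min_le_left _ _)

lemma ramp_abs_le (t w x : ℝ) : |ramp t w x| ≤ 1 := by
  rw [abs_of_nonneg (ramp_nonneg t w x)]
  exact ramp_le_one t w x

lemma ramp_eq_zero {t w x : ℝ} (hw : 0 < w) (h : x ≤ t) : ramp t w x = 0 := by
  unfold ramp
  have h1 : (x - t) / w ≤ 0 := div_nonpos_of_nonpos_of_nonneg (by linarith) hw.le
  exact max_eq_left ((min_le_right _ _).trans h1)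

lemma ramp_eq_one {t w x : ℝ} (hw : 0 < w) (h : t + w ≤ x) : ramp t w x = 1 := by
  unfold ramp
  have h1 : 1 ≤ (x - t) / w := by
    rw [le_div_iff₀ hw]
    linarith
  rw [min_eq_left h1]
  exact max_eq_right zero_le_one

section Deterministic

variable {N : ℕ}

/-- A sum over the coordinates of `f` that vanishes from index `i` on counts at most `i`. -/
lemma sum_le_of_vanish (f : Fin N → ℝ) (hf1 : ∀ l, f l ≤ 1) (hf0 : ∀ l, 0 ≤ f l) (i : Fin N)
    (hi : ∀ l, i ≤ l → f l = 0) : ∑ l, f l ≤ i := by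
  have h1 : ∑ l, f l = ∑ l ∈ Finset.Iio i, f l := by
    symm
    apply Finset.sum_subset (Finset.subset_univ _)
    intro l _ hl
    apply hi
    simpa using hl
  rw [h1]
  calc ∑ l ∈ Finset.Iio i, f l ≤ ∑ _l ∈ Finset.Iio i, (1 : ℝ) :=
        Finset.sum_le_sum (fun l _ => hf1 l)
    _ = (i : ℝ) := by simp [Fin.card_Iio]

/-- A sum of the coordinates of `f` that equal `1` up to index `i` is at least `i + 1`. -/
lemma sum_ge_of_one (f : Fin N → ℝ) (hf0 : ∀ l, 0 ≤ f l) (i : Fin N)
    (hi : ∀ l, l ≤ i → f l = 1) : (i : ℝ) + 1 ≤ ∑ l, f l := by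
  have h1 : ∑ l ∈ Finset.Iic i, f l ≤ ∑ l, f l :=
    Finset.sum_le_sum_of_subset_of_nonneg (Finset.subset_univ _) (fun l _ _ => hf0 l)
  have h2 : ∑ l ∈ Finset.Iic i, f l = (i : ℝ) + 1 := by
    rw [Finset.sum_congr rfl (fun l hl => hi l (Finset.mem_Iic.mp hl))]
    simp [Fin.card_Iic]
  linarith

/-- The size of a set of indices lying between two real numbers. -/
lemma card_le_of_between (A : Finset (Fin N)) (s s' : ℝ)
    (h1 : ∀ i ∈ A, (i : ℝ) + 1 ≤ s) (h2 : ∀ i ∈ A, s' ≤ (i : ℝ)) :
    (A.card : ℝ) ≤ |s - s'| := by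
  by_cases hA : A.Nonempty
  · obtain ⟨i₀, hi₀, hmin⟩ := A.exists_min_image (fun i => (i : ℕ)) hA
    obtain ⟨i₁, hi₁, hmax⟩ := A.exists_max_image (fun i => (i : ℕ)) hA
    have hsub : A ⊆ Finset.Icc i₀ i₁ := by
      intro i hi
      exact Finset.mem_Icc.mpr ⟨hmin i hi, hmax i hi⟩
    have hc := Finset.card_le_card hsub
    rw [Fin.card_Icc] at hc
    have hle : (i₀ : ℕ) ≤ i₁ := hmax i₀ hi₀
    have h3 : (A.card : ℝ) ≤ (i₁ : ℝ) + 1 - i₀ := by
      have : A.card + (i₀ : ℕ) ≤ (i₁ : ℕ) + 1 := by omega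
      have h4 : ((A.card + (i₀ : ℕ) : ℕ) : ℝ) ≤ (((i₁ : ℕ) + 1 : ℕ) : ℝ) := by exact_mod_cast this
      push_cast at h4
      linarith
    have h5 := h1 i₁ hi₁
    have h6 := h2 i₀ hi₀
    exact h3.trans (by linarith [le_abs_self (s - s')])
  · rw [Finset.not_nonempty_iff_eq_empty.mp hA]
    simp

/-- Many coordinates of two decreasing lists are far apart only if some ramp statistic differs. -/
lemma card_far_le {η C : ℝ} (hη : 0 < η) (hC : 0 ≤ C) (Λ Λ' : Fin N → ℝ) (hΛ : Antitone Λ)
    (hΛ' : Antitone Λ') (hb' : ∀ i, |Λ' i| ≤ C) (m : ℕ) (hm : 2 * C / η ≤ m) :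
    (((Finset.univ : Finset (Fin N)).filter (fun i => Λ' i + 3 * η < Λ i)).card : ℝ) ≤
      ∑ j ∈ Finset.range (m + 1),
        |∑ l, ramp (-C + j * η) η (Λ l) - ∑ l, ramp (-C + j * η) η (Λ' l)| := by
  classical
  set t : ℕ → ℝ := fun j => -C + j * η with ht
  set A : ℕ → Finset (Fin N) := fun j =>
    (Finset.univ : Finset (Fin N)).filter (fun i => Λ' i ≤ t j ∧ t j + η ≤ Λ i) with hA
  have hcov : (Finset.univ : Finset (Fin N)).filter (fun i => Λ' i + 3 * η < Λ i) ⊆
      (Finset.range (m + 1)).biUnion A := by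
    intro i hi
    have hi' : Λ' i + 3 * η < Λ i := (Finset.mem_filter.mp hi).2
    have hbi := abs_le.mp (hb' i)
    set j := ⌈(Λ' i + C) / η⌉₊ with hj
    have hj1 : (Λ' i + C) / η ≤ j := Nat.le_ceil _
    have hj2 : (j : ℝ) < (Λ' i + C) / η + 1 :=
      Nat.ceil_lt_add_one (div_nonneg (by linarith) hη.le)
    have hjm : j ≤ m := by
      have h1 : (Λ' i + C) / η ≤ m := by
        refine le_trans ?_ hm
        apply div_le_div_of_nonneg_right _ hη.le
        linarith
      exact Nat.ceil_le.mpr h1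
    refine Finset.mem_biUnion.mpr ⟨j, Finset.mem_range.mpr (by omega), ?_⟩
    refine Finset.mem_filter.mpr ⟨Finset.mem_univ _, ?_, ?_⟩
    · simp only [ht]
      rw [div_le_iff₀ hη] at hj1
      linarith
    · simp only [ht]
      have h3 : (j : ℝ) * η < Λ' i + C + η := by
        have := mul_lt_mul_of_pos_right hj2 hη
        have e : ((Λ' i + C) / η + 1) * η = Λ' i + C + η := by
          field_simp
        rw [e] at this
        exact this
      linarith
  have hcard : ∀ j, ((A j).card : ℝ) ≤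
      |∑ l, ramp (t j) η (Λ l) - ∑ l, ramp (t j) η (Λ' l)| := by
    intro j
    apply card_le_of_between
    · intro i hi
      have hi' := (Finset.mem_filter.mp hi).2
      apply sum_ge_of_one _ (fun l => ramp_nonneg _ _ _)
      intro l hl
      exact ramp_eq_one hη (hi'.2.trans (hΛ hl))
    · intro i hi
      have hi' := (Finset.mem_filter.mp hi).2
      apply sum_le_of_vanish _ (fun l => ramp_le_one _ _ _) (fun l => ramp_nonneg _ _ _)
      intro l hl
      exact ramp_eq_zero hη ((hΛ' hl).trans hi'.1)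
  calc (((Finset.univ : Finset (Fin N)).filter (fun i => Λ' i + 3 * η < Λ i)).card : ℝ)
      ≤ (((Finset.range (m + 1)).biUnion A).card : ℝ) := by
        exact_mod_cast Finset.card_le_card hcov
    _ ≤ ∑ j ∈ Finset.range (m + 1), ((A j).card : ℝ) := by
        exact_mod_cast Finset.card_biUnion_le
    _ ≤ _ := Finset.sum_le_sum (fun j _ => hcard j)

/-- The weighted sum in the basic estimate, split at the size of the top part. -/
lemma weighted_le (hN : 0 < N) {β : ℝ} (hβ : 0 < β) {M : Fin N → ℝ} (hM : Antitone M)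
    (δ : Fin N → ℝ) {η C K : ℝ} (hη : 0 ≤ η) (hC : 0 ≤ C) (hK : 0 < K)
    (hδC : ∀ i, δ i ≤ C)
    (htop : ∀ i : Fin N, (i : ℝ) + 1 ≤ K → δ i ≤ η) :
    ∑ i, δ i * gI β M i ≤
      η + C / K * (((Finset.univ : Finset (Fin N)).filter (fun i => η < δ i)).card : ℝ) := by
  classical
  set Bad := (Finset.univ : Finset (Fin N)).filter (fun i => η < δ i) with hBad
  have h1 : ∀ i, δ i * gI β M i ≤ η * gI β M i + (if i ∈ Bad then C / K else 0) := by
    intro i
    by_cases hi : i ∈ Bad
    · rw [if_pos hi]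
      have hi' : η < δ i := (Finset.mem_filter.mp hi).2
      have hgt : K < (i : ℝ) + 1 := by
        by_contra hne
        exact absurd (htop i (not_lt.mp hne)) (not_le.mpr hi')
      have h2 := gI_le_inv hN hβ hM i
      have h3 : gI β M i ≤ 1 / K := by
        refine h2.trans ?_
        exact one_div_le_one_div_of_le hK hgt.le
      have h4 := gI_nonneg β M i
      have h5 : δ i * gI β M i ≤ C * (1 / K) :=
        mul_le_mul (hδC i) h3 h4 hC
      have h6 : 0 ≤ η * gI β M i := mul_nonneg hη h4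
      have e : C / K = C * (1 / K) := by ring
      linarith
    · rw [if_neg hi]
      have hi' : δ i ≤ η := by
        by_contra hne
        exact hi (Finset.mem_filter.mpr ⟨Finset.mem_univ _, not_le.mp hne⟩)
      have := mul_le_mul_of_nonneg_right hi' (gI_nonneg β M i)
      linarith
  have h2 := Finset.sum_le_sum (fun i (_ : i ∈ Finset.univ) => h1 i)
  rw [Finset.sum_add_distrib, ← Finset.mul_sum, gI_sum hN, mul_one, Finset.sum_ite_mem] at h2
  simp only [Finset.univ_inter, Finset.sum_const, nsmul_eq_mul] at h2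
  linarith

end Deterministic

section Asymptotic

variable {μ : Measure ℝ} [IsProbabilityMeasure μ] {a b : ℝ}

lemma ramp_integrable (t w : ℝ) : Integrable (ramp t w) μ := by
  refine Integrable.mono' (integrable_const (1 : ℝ)) (ramp_continuous t w).aestronglyMeasurable ?_
  exact Eventually.of_forall (fun x => by simpa using ramp_abs_le t w x)

/-- A positive proportion of the eigenvalues stays close to the top of the support. -/
lemma top_ge {Λ : (N : ℕ) → Fin N → ℝ} (hs : ∀ N, Antitone (Λ N)) (h : SpectralLimit μ a b Λ)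
    (ha' : ∀ η > 0, 0 < μ (Set.Ioi (a - η))) {η : ℝ} (hη : 0 < η) :
    ∃ c > 0, ∀ᶠ N : ℕ in atTop, ∀ i : Fin N, (i : ℝ) + 1 ≤ c * N → a - η ≤ Λ N i := by
  have hw : 0 < η / 2 := by positivity
  set f := ramp (a - η) (η / 2) with hf
  set S := Set.Ioi (a - η / 2) with hS
  set p := μ.real S with hp
  have hp0 : 0 < p := by
    have h1 := ha' (η / 2) hw
    exact ENNReal.toReal_pos h1.ne' (measure_ne_top _ _)
  have hI : p ≤ ∫ x, f x ∂μ := by
    rw [hp, ← integral_indicator_one (μ := μ) measurableSet_Ioi]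
    apply integral_mono ((integrable_const (1 : ℝ)).indicator measurableSet_Ioi) (ramp_integrable _ _)
    intro x
    by_cases hx : x ∈ S
    · have hx' : a - η / 2 < x := hx
      rw [Set.indicator_of_mem hx]
      exact (ramp_eq_one hw (by linarith)).ge
    · rw [Set.indicator_of_notMem hx]
      exact ramp_nonneg _ _ _
  refine ⟨p / 2, by positivity, ?_⟩
  have hlim := h.1 f (ramp_continuous _ _) ⟨1, ramp_abs_le _ _⟩
  have hev : ∀ᶠ N : ℕ in atTop, p / 2 < (1 / (N : ℝ)) * ∑ i, f (Λ N i) :=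
    hlim.eventually (lt_mem_nhds (by linarith))
  filter_upwards [hev, eventually_gt_atTop 0] with N hN hN0 i hi
  by_contra hne
  push Not at hne
  have hN' : (0 : ℝ) < N := by exact_mod_cast hN0
  have h1 : ∑ l, f (Λ N l) ≤ i := by
    apply sum_le_of_vanish _ (fun l => ramp_le_one _ _ _) (fun l => ramp_nonneg _ _ _)
    intro l hl
    exact ramp_eq_zero hw ((hs N hl).trans hne.le)
  have h2 : (1 / (N : ℝ)) * ∑ l, f (Λ N l) ≤ (1 / (N : ℝ)) * i :=
    mul_le_mul_of_nonneg_left h1 (by positivity)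
  have h3 : (1 / (N : ℝ)) * i < p / 2 := by
    rw [one_div, inv_mul_lt_iff₀ hN']
    nlinarith
  linarith

/-- Coordinates are bounded by the limits of the extreme eigenvalues, eventually. -/
lemma coord_bound {Λ : (N : ℕ) → Fin N → ℝ} (h : SpectralLimit μ a b Λ) :
    ∀ᶠ N : ℕ in atTop, ∀ i, |Λ N i| ≤ max |a| |b| + 1 := by
  have h1 : ∀ᶠ N : ℕ in atTop, (⨆ i, Λ N i) < a + 1 :=
    h.2.1.eventually (gt_mem_nhds (by linarith))
  have h2 : ∀ᶠ N : ℕ in atTop, b - 1 < (⨅ i, Λ N i) :=
    h.2.2.eventually (lt_mem_nhds (by linarith))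
  filter_upwards [h1, h2] with N hN1 hN2 i
  have h3 : Λ N i ≤ ⨆ i, Λ N i := le_ciSup (Set.finite_range _).bddAbove i
  have h4 : (⨅ i, Λ N i) ≤ Λ N i := ciInf_le (Set.finite_range _).bddBelow i
  rw [abs_le]
  have h5 := le_max_left |a| |b|
  have h6 := le_max_right |a| |b|
  have h7 := le_abs_self a
  have h8 := neg_abs_le b
  constructor <;> linarith

/-- Two eigenvalue sequences with the same spectral limit give the same pressure in the limit,
under the coupling by the same Haar orthogonal matrix. -/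
theorem tendsto_abs_pressure (ha' : ∀ η > 0, 0 < μ (Set.Ioi (a - η))) {β : ℝ} (hβ : 0 < β)
    {Λ Λ' : (N : ℕ) → Fin N → ℝ} (hs : ∀ N, Antitone (Λ N)) (hs' : ∀ N, Antitone (Λ' N))
    (h : SpectralLimit μ a b Λ) (h' : SpectralLimit μ a b Λ') :
    Tendsto (fun N => ∫ U, |pressure β (Λ N) U - pressure β (Λ' N) U| ∂haarO N) atTop (𝓝 0) := by
  rw [Metric.tendsto_nhds]
  intro ε hε
  set C := max |a| |b| + 1 with hC
  have hC0 : 0 < C := by
    have := le_max_left |a| |b|
    have := abs_nonneg a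
    linarith
  set η := ε / (4 * β) with hηdef
  have hη : 0 < η := by positivity
  have hβη : β / 2 * (3 * η) = 3 / 8 * ε := by
    rw [hηdef]
    field_simp
    ring
  obtain ⟨c₁, hc₁, htop₁⟩ := top_ge hs h ha' hη
  obtain ⟨c₂, hc₂, htop₂⟩ := top_ge hs' h' ha' hη
  set c := min c₁ c₂ with hc
  have hc0 : 0 < c := lt_min hc₁ hc₂
  -- the upper bounds near the top of the support
  have hup₁ : ∀ᶠ N : ℕ in atTop, ∀ i, Λ N i ≤ a + η := by
    filter_upwards [h.2.1.eventually (gt_mem_nhds (show a < a + η by linarith))] with N hN i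
    exact (le_ciSup (Set.finite_range _).bddAbove i).trans hN.le
  have hup₂ : ∀ᶠ N : ℕ in atTop, ∀ i, Λ' N i ≤ a + η := by
    filter_upwards [h'.2.1.eventually (gt_mem_nhds (show a < a + η by linarith))] with N hN i
    exact (le_ciSup (Set.finite_range _).bddAbove i).trans hN.le
  -- the grid of test functions
  set m : ℕ := ⌈2 * C / η⌉₊ with hm
  have hmle : 2 * C / η ≤ m := Nat.le_ceil _
  set X : ℕ → ℝ := fun N => ∑ j ∈ Finset.range (m + 1),
    |(1 / (N : ℝ)) * ∑ l, ramp (-C + j * η) η (Λ N l) -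
      (1 / (N : ℝ)) * ∑ l, ramp (-C + j * η) η (Λ' N l)| with hX
  have hXlim : Tendsto X atTop (𝓝 0) := by
    have h1 : ∀ j ∈ Finset.range (m + 1), Tendsto (fun N : ℕ =>
        |(1 / (N : ℝ)) * ∑ l, ramp (-C + j * η) η (Λ N l) -
          (1 / (N : ℝ)) * ∑ l, ramp (-C + j * η) η (Λ' N l)|) atTop (𝓝 0) := by
      intro j _
      have h2 := h.1 _ (ramp_continuous (-C + j * η) η) ⟨1, ramp_abs_le _ _⟩
      have h3 := h'.1 _ (ramp_continuous (-C + j * η) η) ⟨1, ramp_abs_le _ _⟩
      have h4 := (h2.sub h3).abs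
      simpa using h4
    have h5 := tendsto_finsetSum (Finset.range (m + 1)) h1
    simpa [hX] using h5
  -- the constant in front of `X`
  set A : ℝ := β / 2 * (2 * C / c * 2) with hA
  have hA0 : 0 < A := by positivity
  have hXsmall : ∀ᶠ N : ℕ in atTop, X N < ε / (4 * A) :=
    hXlim.eventually (gt_mem_nhds (by positivity))
  filter_upwards [eventually_gt_atTop 0, htop₁, htop₂, hup₁, hup₂, coord_bound h, coord_bound h',
    hXsmall] with N hN0 ht₁ ht₂ hu₁ hu₂ hb₁ hb₂ hXN
  have hN' : (0 : ℝ) < N := by exact_mod_cast hN0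
  set L := Λ N with hL
  set L' := Λ' N with hL'
  have hanti : Antitone (fun i => max (L i) (L' i)) := by
    intro i j hij
    exact max_le_max (hs N hij) (hs' N hij)
  have hbase := abs_le_gI hN0 hβ L L'
  have hK : 0 < c * N := by positivity
  have hδC : ∀ i, |L i - L' i| ≤ 2 * C := by
    intro i
    have h1 := abs_le.mp (hb₁ i)
    have h2 := abs_le.mp (hb₂ i)
    rw [abs_le]
    constructor <;> linarith [h1.1, h1.2, h2.1, h2.2]
  have htop : ∀ i : Fin N, (i : ℝ) + 1 ≤ c * N → |L i - L' i| ≤ 3 * η := by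
    intro i hi
    have h1 : (i : ℝ) + 1 ≤ c₁ * N :=
      hi.trans (mul_le_mul_of_nonneg_right (min_le_left _ _) hN'.le)
    have h2 : (i : ℝ) + 1 ≤ c₂ * N :=
      hi.trans (mul_le_mul_of_nonneg_right (min_le_right _ _) hN'.le)
    have h3 := ht₁ i h1
    have h4 := ht₂ i h2
    have h5 := hu₁ i
    have h6 := hu₂ i
    rw [abs_le]
    constructor <;> linarith
  have hw := weighted_le hN0 hβ hanti (fun i => |L i - L' i|) (by positivity : (0 : ℝ) ≤ 3 * η)
    (by positivity : (0 : ℝ) ≤ 2 * C) hK hδC htop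
  -- counting the far coordinates
  have hfar : (((Finset.univ : Finset (Fin N)).filter (fun i => 3 * η < |L i - L' i|)).card : ℝ) ≤
      2 * (N * X N) := by
    have hsub : (Finset.univ : Finset (Fin N)).filter (fun i => 3 * η < |L i - L' i|) ⊆
        (Finset.univ.filter (fun i => L' i + 3 * η < L i)) ∪
        (Finset.univ.filter (fun i => L i + 3 * η < L' i)) := by
      intro i hi
      have hi' := (Finset.mem_filter.mp hi).2
      rcases lt_abs.mp hi' with h1 | h1
      · exact Finset.mem_union_left _ (Finset.mem_filter.mpr ⟨Finset.mem_univ _, by linarith⟩)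
      · exact Finset.mem_union_right _ (Finset.mem_filter.mpr ⟨Finset.mem_univ _, by linarith⟩)
    have h1 := card_far_le hη hC0.le L L' (hs N) (hs' N) hb₂ m hmle
    have h2 := card_far_le hη hC0.le L' L (hs' N) (hs N) hb₁ m hmle
    have hNX : N * X N = ∑ j ∈ Finset.range (m + 1),
        |∑ l, ramp (-C + j * η) η (L l) - ∑ l, ramp (-C + j * η) η (L' l)| := by
      simp only [hX]
      rw [Finset.mul_sum]
      refine Finset.sum_congr rfl (fun j _ => ?_)
      rw [← mul_sub, abs_mul, abs_of_pos (by positivity : (0 : ℝ) < 1 / N)]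
      field_simp
      rfl
    have hNX' : N * X N = ∑ j ∈ Finset.range (m + 1),
        |∑ l, ramp (-C + j * η) η (L' l) - ∑ l, ramp (-C + j * η) η (L l)| := by
      rw [hNX]
      refine Finset.sum_congr rfl (fun j _ => ?_)
      rw [abs_sub_comm]
    have h3 := Finset.card_le_card hsub
    have h4 := Finset.card_union_le (Finset.univ.filter (fun i => L' i + 3 * η < L i))
      (Finset.univ.filter (fun i => L i + 3 * η < L' i))
    have h5 : (((Finset.univ : Finset (Fin N)).filter (fun i => 3 * η < |L i - L' i|)).card : ℝ) ≤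
        ((Finset.univ.filter (fun i => L' i + 3 * η < L i)).card : ℝ) +
        ((Finset.univ.filter (fun i => L i + 3 * η < L' i)).card : ℝ) := by
      exact_mod_cast h3.trans h4
    rw [← hNX] at h1
    rw [← hNX'] at h2
    linarith
  have hint0 : 0 ≤ ∫ U, |pressure β L U - pressure β L' U| ∂haarO N :=
    integral_nonneg (fun U => abs_nonneg _)
  have hfinal : ∫ U, |pressure β L U - pressure β L' U| ∂haarO N ≤ 3 / 8 * ε + A * X N := by
    refine hbase.trans ?_
    have h1 : 2 * C / (c * N) * (((Finset.univ : Finset (Fin N)).filter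
        (fun i => 3 * η < |L i - L' i|)).card : ℝ) ≤ 2 * C / (c * N) * (2 * (N * X N)) :=
      mul_le_mul_of_nonneg_left hfar (by positivity)
    have h2 : 2 * C / (c * N) * (2 * (N * X N)) = 2 * C / c * 2 * X N := by
      field_simp
    have h3 : ∑ i, |L i - L' i| * gI β (fun i => max (L i) (L' i)) i ≤
        3 * η + 2 * C / c * 2 * X N := by
      linarith
    have h4 := mul_le_mul_of_nonneg_left h3 (by positivity : (0 : ℝ) ≤ β / 2)
    rw [mul_add, hβη] at h4
    calc _ ≤ _ := h4
      _ = 3 / 8 * ε + A * X N := by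
        rw [hA]
        ring
  have hAX : A * X N < ε / 4 := by
    have := mul_lt_mul_of_pos_left hXN hA0
    have e : A * (ε / (4 * A)) = ε / 4 := by
      field_simp
    rwa [e] at this
  rw [Real.dist_eq, sub_zero, abs_of_nonneg hint0]
  linarith

/-- Reordering the eigenvalues changes neither the hypotheses nor the mean pressure. -/
lemma SpectralLimit.perm {Λ : (N : ℕ) → Fin N → ℝ} (h : SpectralLimit μ a b Λ)
    (π : (N : ℕ) → Equiv.Perm (Fin N)) : SpectralLimit μ a b (fun N => Λ N ∘ π N) := by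
  refine ⟨?_, ?_, ?_⟩
  · intro f hf hb
    have := h.1 f hf hb
    refine this.congr (fun N => ?_)
    congr 1
    exact (Equiv.sum_comp (π N) (fun i => f (Λ N i))).symm
  · refine h.2.1.congr (fun N => ?_)
    exact ((π N).iSup_comp (g := Λ N)).symm
  · refine h.2.2.congr (fun N => ?_)
    exact ((π N).iInf_comp (g := Λ N)).symm

/-- The sorting permutation: the eigenvalues in decreasing order. -/
noncomputable def sortPerm {N : ℕ} (L : Fin N → ℝ) : Equiv.Perm (Fin N) :=
  Tuple.sort (fun i => - L i)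

lemma antitone_sort {N : ℕ} (L : Fin N → ℝ) : Antitone (L ∘ sortPerm L) := by
  intro i j hij
  have h := Tuple.monotone_sort (fun i => - L i) hij
  simp only [Function.comp, neg_le_neg_iff] at h
  exact h

lemma meanP_sort {N : ℕ} (β : ℝ) (L : Fin N → ℝ) : meanP β (L ∘ sortPerm L) = meanP β L := by
  have := meanP_perm (sortPerm L).symm β L
  simpa using this

/-- The mean pressures of two eigenvalue sequences with the same spectral limit, listed in any
order, have the same limiting behaviour. -/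
theorem tendsto_meanP (ha' : ∀ η > 0, 0 < μ (Set.Ioi (a - η))) {β : ℝ} (hβ : 0 < β)
    {Λ Λ' : (N : ℕ) → Fin N → ℝ} (h : SpectralLimit μ a b Λ) (h' : SpectralLimit μ a b Λ') :
    Tendsto (fun N => ∫ U, pressure β (Λ N) U ∂haarO N - ∫ U, pressure β (Λ' N) U ∂haarO N)
      atTop (𝓝 0) := by
  set S : (N : ℕ) → Fin N → ℝ := fun N => Λ N ∘ sortPerm (Λ N) with hS
  set S' : (N : ℕ) → Fin N → ℝ := fun N => Λ' N ∘ sortPerm (Λ' N) with hS'
  have hlim := tendsto_abs_pressure ha' hβ (Λ := S) (Λ' := S')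
    (fun N => antitone_sort (Λ N)) (fun N => antitone_sort (Λ' N))
    (h.perm (fun N => sortPerm (Λ N))) (h'.perm (fun N => sortPerm (Λ' N)))
  have hle : ∀ N, |∫ U, pressure β (Λ N) U ∂haarO N - ∫ U, pressure β (Λ' N) U ∂haarO N| ≤
      ∫ U, |pressure β (S N) U - pressure β (S' N) U| ∂haarO N := by
    intro N
    have e1 : ∫ U, pressure β (Λ N) U ∂haarO N = ∫ U, pressure β (S N) U ∂haarO N :=
      (meanP_sort β (Λ N)).symm
    have e2 : ∫ U, pressure β (Λ' N) U ∂haarO N = ∫ U, pressure β (S' N) U ∂haarO N :=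
      (meanP_sort β (Λ' N)).symm
    rw [e1, e2, ← integral_sub (integrable_of_continuous (continuous_pressure β _))
      (integrable_of_continuous (continuous_pressure β _))]
    exact abs_integral_le_integral_abs
  exact squeeze_zero_norm (fun N => by simpa using hle N) hlim

/-- The explicit estimate at finite `N`. -/
theorem abs_le_harmonic {N : ℕ} (hN : 0 < N) {β : ℝ} (hβ : 0 < β) {L L' : Fin N → ℝ}
    (hL : Antitone L) (hL' : Antitone L') :
    ∫ U, |pressure β L U - pressure β L' U| ∂haarO N ≤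
      β / 2 * ∑ k : Fin N, |L k - L' k| / ((k : ℝ) + 1) := by
  refine (abs_le_gI hN hβ L L').trans ?_
  apply mul_le_mul_of_nonneg_left _ (by positivity)
  refine Finset.sum_le_sum (fun k _ => ?_)
  have hanti : Antitone (fun i => max (L i) (L' i)) := fun i j hij =>
    max_le_max (hL hij) (hL' hij)
  have h1 := gI_le_inv hN hβ hanti k
  rw [div_eq_mul_one_div]
  exact mul_le_mul_of_nonneg_left h1 (abs_nonneg _)

end Asymptotic

end Vale.Agent.Lib.P166
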